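import Vale.Agent.P170.Transfer

namespace Vale.Agent.Results.P170.Threshold

open Filter Topology Vale.Agent.P170

theorem result : ∀ k : ℕ, 3 ≤ k → ∃ α : ℝ, 0 < α ∧
    (∀ c : ℝ, 0 ≤ c → c < α → Tendsto (fun n : ℕ => P k n ⌊c * n⌋₊) atTop (𝓝 1)) ∧
    (∀ c : ℝ, α < c → Tendsto (fun n : ℕ => P k n ⌊c * n⌋₊) atTop (𝓝 0)) :=
  threshold

end Vale.Agent.Results.P170.Threshold
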